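import Mathlib

namespace Vale.Agent.Results.P256.QuadraticCones

open Finset Matrix

/-- The real quadratic form with coefficient matrix Q. -/
def quadR {n : ℕ} (Q : Matrix (Fin n) (Fin n) ℝ) (x : Fin n → ℝ) : ℝ :=
  ∑ i, ∑ j, Q i j * x i * x j

/-- The same quadratic form evaluated at complex points. -/
def quadC {n : ℕ} (Q : Matrix (Fin n) (Fin n) ℝ) (z : Fin n → ℂ) : ℂ :=
  ∑ i, ∑ j, (Q i j : ℂ) * z i * z j

/-- The quadratic form is hyperbolic with respect to e: it is positive at e and every complex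
root t of the restriction to the line through x in direction e is real. -/
def Hyperbolic {n : ℕ} (Q : Matrix (Fin n) (Fin n) ℝ) (e : Fin n → ℝ) : Prop :=
  0 < quadR Q e ∧
    ∀ (x : Fin n → ℝ) (t : ℂ), quadC Q (fun i => t * (e i : ℂ) - (x i : ℂ)) = 0 → t.im = 0

/-- The closed hyperbolicity cone: all roots of the restriction are nonnegative. -/
def cone {n : ℕ} (Q : Matrix (Fin n) (Fin n) ℝ) (e : Fin n → ℝ) : Set (Fin n → ℝ) :=
  {x | ∀ t : ℝ, quadR Q (fun i => t * e i - x i) = 0 → 0 ≤ t}

/-- The linear form x ↦ e^T Q x. -/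
def lin {n : ℕ} (Q : Matrix (Fin n) (Fin n) ℝ) (e x : Fin n → ℝ) : ℝ :=
  ∑ k, (∑ j, Q k j * e j) * x k

theorem expand {R : Type*} [CommRing R] {n : ℕ} (M : Matrix (Fin n) (Fin n) R)
    (hM : ∀ i j, M i j = M j i) (u w : Fin n → R) (t : R) :
    ∑ i, ∑ j, M i j * (t * u i - w i) * (t * u j - w j)
      = t ^ 2 * (∑ i, ∑ j, M i j * u i * u j) - 2 * t * (∑ k, (∑ j, M k j * u j) * w k)
        + ∑ i, ∑ j, M i j * w i * w j := by
  have h1 : ∑ i, ∑ j, M i j * u i * w j = ∑ k, (∑ j, M k j * u j) * w k := by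
    rw [Finset.sum_comm]
    refine Finset.sum_congr rfl fun k _ => ?_
    rw [Finset.sum_mul]
    refine Finset.sum_congr rfl fun j _ => ?_
    rw [hM j k]
  have h2 : ∑ i, ∑ j, M i j * w i * u j = ∑ k, (∑ j, M k j * u j) * w k := by
    refine Finset.sum_congr rfl fun k _ => ?_
    rw [Finset.sum_mul]
    refine Finset.sum_congr rfl fun j _ => ?_
    ring
  have h3 : ∀ i j, M i j * (t * u i - w i) * (t * u j - w j)
      = t ^ 2 * (M i j * u i * u j) - t * (M i j * u i * w j) - t * (M i j * w i * u j)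
        + M i j * w i * w j := by
    intro i j
    ring
  simp only [h3, Finset.sum_add_distrib, Finset.sum_sub_distrib, ← Finset.mul_sum, h1, h2]
  ring

theorem expandR {n : ℕ} (Q : Matrix (Fin n) (Fin n) ℝ) (hQ : ∀ i j, Q i j = Q j i)
    (e x : Fin n → ℝ) (t : ℝ) :
    quadR Q (fun i => t * e i - x i) = t ^ 2 * quadR Q e - 2 * t * lin Q e x + quadR Q x := by
  unfold quadR lin
  exact expand Q hQ e x t

theorem expandC {n : ℕ} (Q : Matrix (Fin n) (Fin n) ℝ) (hQ : ∀ i j, Q i j = Q j i)
    (e x : Fin n → ℝ) (t : ℂ) :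
    quadC Q (fun i => t * (e i : ℂ) - (x i : ℂ))
      = t ^ 2 * (quadR Q e : ℂ) - 2 * t * (lin Q e x : ℂ) + (quadR Q x : ℂ) := by
  unfold quadC quadR lin
  have h := expand (Q.map (algebraMap ℝ ℂ))
    (fun i j => by simp only [Matrix.map_apply]; rw [hQ i j])
    (fun i => (e i : ℂ)) (fun i => (x i : ℂ)) t
  simp only [Matrix.map_apply, Complex.coe_algebraMap] at h
  rw [h]
  push_cast
  ring

theorem scalar_root (a p l : ℝ) (ha : 0 < a) (hlt : l ^ 2 < a * p) :
    ∃ t : ℂ, t ^ 2 * (a : ℂ) - 2 * t * (l : ℂ) + (p : ℂ) = 0 ∧ t.im ≠ 0 := by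
  have hpos : 0 < a * p - l ^ 2 := by linarith
  have hs : 0 < Real.sqrt (a * p - l ^ 2) := Real.sqrt_pos.2 hpos
  have hs2 : Real.sqrt (a * p - l ^ 2) ^ 2 = a * p - l ^ 2 := Real.sq_sqrt hpos.le
  have hs2C : (Real.sqrt (a * p - l ^ 2) : ℂ) ^ 2 = (a : ℂ) * (p : ℂ) - (l : ℂ) ^ 2 := by
    exact_mod_cast hs2
  have haC : (a : ℂ) ≠ 0 := by exact_mod_cast ha.ne'
  refine ⟨((l : ℂ) + (Real.sqrt (a * p - l ^ 2) : ℂ) * Complex.I) / (a : ℂ), ?_, ?_⟩
  · field_simp
    linear_combination (Real.sqrt (a * p - l ^ 2) : ℂ) ^ 2 * Complex.I_sq - hs2C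
  · rw [Complex.div_ofReal_im]
    simp only [Complex.add_im, Complex.ofReal_im, Complex.mul_im, Complex.ofReal_re,
      Complex.I_im, Complex.I_re, mul_one, mul_zero, zero_add, add_zero]
    exact div_ne_zero hs.ne' ha.ne'

/-- The reversed Cauchy-Schwarz inequality that expresses hyperbolicity. -/
theorem reverse_cs {n : ℕ} (Q : Matrix (Fin n) (Fin n) ℝ) (hQ : ∀ i j, Q i j = Q j i)
    (e : Fin n → ℝ) (hyp : Hyperbolic Q e) (x : Fin n → ℝ) :
    quadR Q e * quadR Q x ≤ lin Q e x ^ 2 := by
  by_contra hcon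
  rw [not_le] at hcon
  obtain ⟨t, ht, him⟩ := scalar_root (quadR Q e) (quadR Q x) (lin Q e x) hyp.1 hcon
  apply him
  apply hyp.2 x t
  rw [expandC Q hQ e x]
  exact ht

theorem mem_cone_iff {n : ℕ} (Q : Matrix (Fin n) (Fin n) ℝ) (hQ : ∀ i j, Q i j = Q j i)
    (e : Fin n → ℝ) (hyp : Hyperbolic Q e) (x : Fin n → ℝ) :
    x ∈ cone Q e ↔ 0 ≤ lin Q e x ∧ 0 ≤ quadR Q x := by
  have ha := hyp.1
  have hcs := reverse_cs Q hQ e hyp x
  constructor
  · intro hx
    have hN : 0 ≤ lin Q e x ^ 2 - quadR Q e * quadR Q x := by linarith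
    set s := Real.sqrt (lin Q e x ^ 2 - quadR Q e * quadR Q x) with hsdef
    have hs0 : 0 ≤ s := Real.sqrt_nonneg _
    have hs2 : s ^ 2 = lin Q e x ^ 2 - quadR Q e * quadR Q x := Real.sq_sqrt hN
    have hroot : quadR Q (fun i => ((lin Q e x - s) / quadR Q e) * e i - x i) = 0 := by
      rw [expandR Q hQ e x]
      field_simp
      linear_combination hs2
    have ht := hx _ hroot
    have h1 : 0 ≤ lin Q e x - s := by
      by_contra hneg
      rw [not_le] at hneg
      have : (lin Q e x - s) / quadR Q e < 0 := div_neg_of_neg_of_pos hneg ha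
      linarith
    have h2 : 0 ≤ lin Q e x := by linarith
    refine ⟨h2, ?_⟩
    have h3 : s ^ 2 ≤ lin Q e x ^ 2 := by nlinarith
    have h4 : 0 ≤ quadR Q e * quadR Q x := by linarith
    by_contra hneg
    rw [not_le] at hneg
    have : quadR Q e * quadR Q x < 0 := mul_neg_of_pos_of_neg ha hneg
    linarith
  · rintro ⟨hl, hp⟩ t ht
    rw [expandR Q hQ e x] at ht
    by_contra hneg
    rw [not_le] at hneg
    have ht2 : 0 < t ^ 2 := by nlinarith
    have h1 : 0 < t ^ 2 * quadR Q e := mul_pos ht2 ha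
    have h2 : 0 ≤ -(2 * t * lin Q e x) := by nlinarith
    linarith

/-- The matrices of the linear pencil, indexed by none and the coordinates. -/
def pencil {n : ℕ} (q : Fin n → ℝ) (S : Matrix (Fin n) (Fin n) ℝ) (k : Fin n) :
    Matrix (Option (Fin n)) (Option (Fin n)) ℝ :=
  Matrix.of fun a b =>
    match a, b with
    | none, none => q k
    | none, some j => S j k
    | some i, none => S i k
    | some i, some j => q k * S i j

/-- The bilinear form with coefficient matrix S. -/
def bil {n : ℕ} (S : Matrix (Fin n) (Fin n) ℝ) (y x : Fin n → ℝ) : ℝ :=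
  ∑ i, ∑ j, S i j * y i * x j

theorem pencil_symm {n : ℕ} (q : Fin n → ℝ) (S : Matrix (Fin n) (Fin n) ℝ)
    (hS : ∀ i j, S i j = S j i) (k : Fin n) : (pencil q S k).IsSymm := by
  unfold Matrix.IsSymm
  ext a b
  rw [Matrix.transpose_apply]
  cases a <;> cases b <;> simp [pencil, hS]

theorem qform {n : ℕ} (q : Fin n → ℝ) (S : Matrix (Fin n) (Fin n) ℝ) (x : Fin n → ℝ)
    (v : Option (Fin n) → ℝ) :
    star v ⬝ᵥ ((∑ k, x k • pencil q S k) *ᵥ v)
      = (∑ k, x k * q k) * v none ^ 2 + 2 * v none * bil S (fun i => v (some i)) x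
        + (∑ k, x k * q k) * bil S (fun i => v (some i)) (fun i => v (some i)) := by
  have hnn : (∑ k, x k • pencil q S k) none none = ∑ k, x k * q k := by
    simp [Matrix.sum_apply, pencil]
  have hns : ∀ j, (∑ k, x k • pencil q S k) none (some j) = ∑ k, x k * S j k := by
    intro j
    simp [Matrix.sum_apply, pencil]
  have hsn : ∀ i, (∑ k, x k • pencil q S k) (some i) none = ∑ k, x k * S i k := by
    intro i
    simp [Matrix.sum_apply, pencil]
  have hss : ∀ i j, (∑ k, x k • pencil q S k) (some i) (some j)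
      = (∑ k, x k * q k) * S i j := by
    intro i j
    simp [Matrix.sum_apply, pencil, Finset.sum_mul, mul_assoc]
  simp only [dotProduct, mulVec, Fintype.sum_option, star_trivial, hnn, hns, hsn, hss]
  have e1 : ∑ j, (∑ k, x k * S j k) * v (some j) = bil S (fun i => v (some i)) x := by
    unfold bil
    refine Finset.sum_congr rfl fun j _ => ?_
    rw [Finset.sum_mul]
    refine Finset.sum_congr rfl fun k _ => ?_
    ring
  have e2 : ∑ i, v (some i) * ((∑ k, x k * S i k) * v none
        + ∑ j, (∑ k, x k * q k) * S i j * v (some j))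
      = v none * bil S (fun i => v (some i)) x
        + (∑ k, x k * q k) * bil S (fun i => v (some i)) (fun i => v (some i)) := by
    unfold bil
    rw [Finset.mul_sum, Finset.mul_sum, ← Finset.sum_add_distrib]
    refine Finset.sum_congr rfl fun i _ => ?_
    rw [mul_add, Finset.sum_mul, Finset.mul_sum, Finset.mul_sum, Finset.mul_sum,
      Finset.mul_sum]
    congr 1 <;> refine Finset.sum_congr rfl fun j _ => ?_ <;> ring
  rw [e1, e2]
  ring

theorem bil_cs {n : ℕ} (S : Matrix (Fin n) (Fin n) ℝ) (hS : ∀ i j, S i j = S j i)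
    (hpos : ∀ x, 0 ≤ bil S x x) (y x : Fin n → ℝ) :
    bil S y x ^ 2 ≤ bil S y y * bil S x x := by
  have hsymm : bil S x y = bil S y x := by
    unfold bil
    rw [Finset.sum_comm]
    refine Finset.sum_congr rfl fun i _ => Finset.sum_congr rfl fun j _ => ?_
    rw [hS j i]
    ring
  have hquad : ∀ c : ℝ, 0 ≤ bil S x x * (c * c) + 2 * bil S y x * c + bil S y y := by
    intro c
    have h1 := hpos (fun i => y i + c * x i)
    have h2 : bil S (fun i => y i + c * x i) (fun i => y i + c * x i)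
        = bil S x x * (c * c) + 2 * bil S y x * c + bil S y y := by
      have h3 : bil S (fun i => y i + c * x i) (fun i => y i + c * x i)
          = bil S y y + c * bil S y x + c * bil S x y + c * c * bil S x x := by
        unfold bil
        simp only [Finset.mul_sum, ← Finset.sum_add_distrib]
        refine Finset.sum_congr rfl fun i _ => Finset.sum_congr rfl fun j _ => ?_
        ring
      rw [h3, hsymm]
      ring
    rw [h2] at h1
    exact h1
  have hd := discrim_le_zero hquad
  unfold discrim at hd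
  nlinarith

theorem psd_iff {n : ℕ} (q : Fin n → ℝ) (S : Matrix (Fin n) (Fin n) ℝ)
    (hS : ∀ i j, S i j = S j i) (hpos : ∀ x, 0 ≤ bil S x x) (x : Fin n → ℝ) :
    (∑ k, x k • pencil q S k).PosSemidef
      ↔ 0 ≤ ∑ k, x k * q k ∧ bil S x x ≤ (∑ k, x k * q k) ^ 2 := by
  rw [Matrix.posSemidef_iff_dotProduct_mulVec]
  constructor
  · rintro ⟨_, h⟩
    have h1 := h (fun a => match a with | none => 1 | some _ => 0)
    rw [qform] at h1
    have hz : bil S (fun _ : Fin n => (0 : ℝ)) x = 0 := by simp [bil]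
    have hz2 : bil S (fun _ : Fin n => (0 : ℝ)) (fun _ : Fin n => (0 : ℝ)) = 0 := by simp [bil]
    simp only [hz, hz2] at h1
    have hl : 0 ≤ ∑ k, x k * q k := by linarith
    refine ⟨hl, ?_⟩
    have h2 : ∀ c : ℝ, 0 ≤ (∑ k, x k * q k) * c ^ 2 + 2 * c * bil S x x
        + (∑ k, x k * q k) * bil S x x := by
      intro c
      have h3 := h (fun a => match a with | none => c | some i => x i)
      rw [qform] at h3
      exact h3
    rcases eq_or_lt_of_le hl with h0 | hlt
    · have h4 := h2 (-1)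
      rw [← h0] at h4 ⊢
      have h5 := hpos x
      nlinarith
    · have h4 := h2 (-(∑ k, x k * q k))
      nlinarith
  · rintro ⟨hl, hN⟩
    refine ⟨?_, fun v => ?_⟩
    · rw [Matrix.IsHermitian, Matrix.conjTranspose_eq_transpose_of_trivial,
        Matrix.transpose_sum]
      refine Finset.sum_congr rfl fun k _ => ?_
      rw [Matrix.transpose_smul, (pencil_symm q S hS k).eq]
    · rw [qform]
      have hcs := bil_cs S hS hpos (fun i => v (some i)) x
      have hyy := hpos (fun i => v (some i))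
      rcases eq_or_lt_of_le hl with h0 | hlt
      · rw [← h0] at hN ⊢
        have hxx : bil S x x = 0 := le_antisymm (by simpa using hN) (hpos x)
        rw [hxx, mul_zero] at hcs
        have hc0 : bil S (fun i => v (some i)) x = 0 := by
          have : bil S (fun i => v (some i)) x ^ 2 = 0 := le_antisymm hcs (sq_nonneg _)
          exact pow_eq_zero_iff (two_ne_zero) |>.1 this
        rw [hc0]
        simp
      · have h1 : bil S (fun i => v (some i)) x ^ 2
            ≤ bil S (fun i => v (some i)) (fun i => v (some i)) * (∑ k, x k * q k) ^ 2 :=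
          le_trans hcs (mul_le_mul_of_nonneg_left hN hyy)
        have h2 : 0 ≤ (∑ k, x k * q k) * ((∑ k, x k * q k) * v none ^ 2
            + 2 * v none * bil S (fun i => v (some i)) x
            + (∑ k, x k * q k) * bil S (fun i => v (some i)) (fun i => v (some i))) := by
          nlinarith [sq_nonneg ((∑ k, x k * q k) * v none + bil S (fun i => v (some i)) x)]
        exact nonneg_of_mul_nonneg_right h2 hlt

/-- The closed hyperbolicity cone of every hyperbolic quadratic form is a spectrahedron. -/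
theorem result :
    ∀ (n : ℕ) (Q : Matrix (Fin n) (Fin n) ℝ) (e : Fin n → ℝ), Q.IsSymm → Hyperbolic Q e →
      ∃ (m : ℕ) (A : Fin n → Matrix (Fin m) (Fin m) ℝ), (∀ k, (A k).IsSymm) ∧
        cone Q e = {x | (∑ k, x k • A k).PosSemidef} := by
  intro n Q e hQs hyp
  have hQ : ∀ i j, Q i j = Q j i := fun i j => hQs.apply j i
  set q : Fin n → ℝ := fun k => ∑ j, Q k j * e j with hq
  set S : Matrix (Fin n) (Fin n) ℝ :=
    Matrix.of fun i j => q i * q j - quadR Q e * Q i j with hSdef
  have hS : ∀ i j, S i j = S j i := by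
    intro i j
    simp only [hSdef, Matrix.of_apply]
    rw [hQ i j]
    ring
  have hlin : ∀ x : Fin n → ℝ, ∑ k, x k * q k = lin Q e x := by
    intro x
    unfold lin
    refine Finset.sum_congr rfl fun k _ => ?_
    rw [hq]
    ring
  have hbil : ∀ x : Fin n → ℝ, bil S x x = lin Q e x ^ 2 - quadR Q e * quadR Q x := by
    intro x
    have h1 : ∀ i j, S i j * x i * x j
        = (x i * q i) * (x j * q j) - quadR Q e * (Q i j * x i * x j) := by
      intro i j
      simp only [hSdef, Matrix.of_apply]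
      ring
    unfold bil
    simp only [h1, Finset.sum_sub_distrib, ← Finset.mul_sum, ← Finset.sum_mul]
    rw [hlin x]
    unfold quadR
    ring
  have hpos : ∀ x : Fin n → ℝ, 0 ≤ bil S x x := by
    intro x
    rw [hbil]
    linarith [reverse_cs Q hQ e hyp x]
  refine ⟨n + 1, fun k => (pencil q S k).submatrix (finSuccEquiv n) (finSuccEquiv n),
    fun k => (pencil_symm q S hS k).submatrix _, ?_⟩
  ext x
  rw [mem_cone_iff Q hQ e hyp x]
  have hsub : (∑ k, x k • (pencil q S k).submatrix (finSuccEquiv n) (finSuccEquiv n))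
      = (∑ k, x k • pencil q S k).submatrix (finSuccEquiv n) (finSuccEquiv n) := by
    ext a b
    simp [Matrix.sum_apply]
  show _ ↔ (∑ k, x k • (pencil q S k).submatrix (finSuccEquiv n) (finSuccEquiv n)).PosSemidef
  rw [hsub, Matrix.posSemidef_submatrix_equiv, psd_iff q S hS hpos x, hlin x, hbil x]
  constructor
  · rintro ⟨h1, h2⟩
    exact ⟨h1, by nlinarith [hyp.1]⟩
  · rintro ⟨h1, h2⟩
    refine ⟨h1, ?_⟩
    have h3 : 0 ≤ quadR Q e * quadR Q x := by linarith
    exact nonneg_of_mul_nonneg_right h3 hyp.1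

end Vale.Agent.Results.P256.QuadraticCones
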